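import Vale.Agent.P079.Weak

open Filter Topology Set

namespace Vale.Agent.P079R

open Vale.Agent.P079

variable {X : Type*} [NormedAddCommGroup X] [NormedSpace ℝ X] [CompleteSpace X]

omit [CompleteSpace X] in
/-- the resolvent estimate of step (d) -/
theorem ergodic_norm_le (Y : Submodule ℝ X) (B : X →L[ℝ] X)
    (hB : ∀ v ∈ Y, ‖B v‖ ≤ ‖v‖) {μ : ℝ} (h0 : 0 < μ) (h1 : μ < 1) {a r v : X}
    (ha : a ∈ Y) (hv : v ∈ Y) (hEq : a = μ • B a + (1 - μ) • r) {ε : ℝ}
    (hε : ‖r - (v - B v)‖ ≤ ε) : ‖a‖ ≤ ε + 2 * (1 - μ) * ‖v‖ := by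
  have h1' : 0 < 1 - μ := by linarith
  obtain ⟨w, hw⟩ : ∃ w, w = a - (1 - μ) • v := ⟨_, rfl⟩
  have hwY : w ∈ Y := by
    rw [hw]
    exact Y.sub_mem ha (Y.smul_mem _ hv)
  have e1 : w = μ • B w + (1 - μ) • (r - (v - B v)) - (1 - μ) ^ 2 • B v := by
    have e2 : w = (μ • B a + (1 - μ) • r) - (1 - μ) • v := by rw [← hEq, hw]
    rw [e2]
    have e3 : B w = B a - (1 - μ) • B v := by rw [hw, map_sub, map_smul]
    rw [← e2, e3]
    rw [e2]
    module
  have n1 : ‖w‖ ≤ μ * ‖w‖ + (1 - μ) * ε + (1 - μ) ^ 2 * ‖v‖ := by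
    calc ‖w‖ = ‖μ • B w + (1 - μ) • (r - (v - B v)) - (1 - μ) ^ 2 • B v‖ := by rw [← e1]
      _ ≤ ‖μ • B w + (1 - μ) • (r - (v - B v))‖ + ‖(1 - μ) ^ 2 • B v‖ := norm_sub_le _ _
      _ ≤ ‖μ • B w‖ + ‖(1 - μ) • (r - (v - B v))‖ + ‖(1 - μ) ^ 2 • B v‖ := by
          gcongr
          exact norm_add_le _ _
      _ = μ * ‖B w‖ + (1 - μ) * ‖r - (v - B v)‖ + (1 - μ) ^ 2 * ‖B v‖ := by
          rw [norm_smul, norm_smul, norm_smul, Real.norm_of_nonneg h0.le,
            Real.norm_of_nonneg h1'.le, Real.norm_of_nonneg (sq_nonneg _)]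
      _ ≤ μ * ‖w‖ + (1 - μ) * ε + (1 - μ) ^ 2 * ‖v‖ := by
          have := hB w hwY
          have := hB v hv
          gcongr
  have n2 : ‖w‖ ≤ ε + (1 - μ) * ‖v‖ := by
    have : (1 - μ) * ‖w‖ ≤ (1 - μ) * (ε + (1 - μ) * ‖v‖) := by nlinarith
    exact le_of_mul_le_mul_left this h1'
  have n3 : ‖a‖ ≤ ‖w‖ + (1 - μ) * ‖v‖ := by
    have : a = w + (1 - μ) • v := by rw [hw]; abel
    calc ‖a‖ = ‖w + (1 - μ) • v‖ := by rw [← this]
      _ ≤ ‖w‖ + ‖(1 - μ) • v‖ := norm_add_le _ _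
      _ = ‖w‖ + (1 - μ) * ‖v‖ := by rw [norm_smul, Real.norm_of_nonneg h1'.le]
  linarith

omit [CompleteSpace X] in
/-- step (b): the weak limit solves the limit equation -/
theorem ergodic_limit_eq (B : X →L[ℝ] X) (e : X) (l : Filter ℕ) [l.NeBot] (hl : l ≤ atTop)
    (μ : ℕ → ℝ) (hμ : Tendsto μ atTop (𝓝 1))
    (u : ℕ → X) (hu : ∀ n, u n = μ n • B (u n) + e)
    (R : ℝ) (hBR : ∀ n, ‖B (u n)‖ ≤ R) (r : X) (hr : WTendsto u l r) : r - B r = e := by
  rw [SeparatingDual.eq_iff_forall_dual_eq (R := ℝ)]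
  intro f
  have t1 : Tendsto (fun n => f (u n - B (u n))) l (𝓝 (f (r - B r))) := by
    have := hr (f.comp (ContinuousLinearMap.id ℝ X - B))
    simpa using this
  have t2 : Tendsto (fun n => f (u n - B (u n))) l (𝓝 (f e)) := by
    have e1 : ∀ n, f (u n - B (u n)) = f e - (1 - μ n) * f (B (u n)) := by
      intro n
      have : u n - B (u n) = e - (1 - μ n) • B (u n) := by
        have h := hu n
        calc u n - B (u n) = (μ n • B (u n) + e) - B (u n) := by rw [← h]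
          _ = e - (1 - μ n) • B (u n) := by module
      rw [this, map_sub, map_smul, smul_eq_mul]
    simp_rw [e1]
    have t3 : Tendsto (fun n => (1 - μ n) * f (B (u n))) l (𝓝 0) := by
      have t4 : Tendsto (fun n => 1 - μ n) l (𝓝 0) := by
        have := (tendsto_const_nhds (x := (1 : ℝ))).sub (hμ.mono_left hl)
        simpa using this
      apply squeeze_zero_norm (a := fun n => |1 - μ n| * (‖f‖ * R))
      · intro n
        rw [norm_mul, Real.norm_eq_abs]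
        have : ‖f (B (u n))‖ ≤ ‖f‖ * R :=
          (f.le_opNorm _).trans (mul_le_mul_of_nonneg_left (hBR n) (norm_nonneg _))
        gcongr
      · have := (t4.abs).mul_const (‖f‖ * R)
        simpa using this
    have := (tendsto_const_nhds (x := f e)).sub t3
    simpa using this
  exact tendsto_nhds_unique t1 t2

omit [CompleteSpace X] in
/-- step (c): the weak limit lies in the closure of the range of `1 - B` on `Y` -/
theorem ergodic_mem_closure (Y : Submodule ℝ X) (B : X →L[ℝ] X) (e : X)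
    (l : Filter ℕ) [l.NeBot]
    (μ : ℕ → ℝ) (hμ1 : ∀ n, μ n < 1)
    (u : ℕ → X) (huY : ∀ n, u n ∈ Y) (hu : ∀ n, u n = μ n • B (u n) + e)
    (r : X) (hrY : r ∈ Y) (hr : WTendsto u l r) (hre : r - B r = e) :
    r ∈ closure {x | ∃ v ∈ Y, x = v - B v} := by
  by_contra hcon
  have hconv : Convex ℝ {x | ∃ v ∈ Y, x = v - B v} := by
    rintro x ⟨v, hv, rfl⟩ y ⟨w, hw, rfl⟩ a b _ _ _
    refine ⟨a • v + b • w, Y.add_mem (Y.smul_mem _ hv) (Y.smul_mem _ hw), ?_⟩
    rw [map_add, map_smul, map_smul]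
    module
  obtain ⟨f, c, hf1, hf2⟩ := geometric_hahn_banach_closed_point hconv.closure isClosed_closure hcon
  have hf0 : ∀ v ∈ Y, f (v - B v) = 0 := by
    intro v hv
    by_contra hne
    have h := hf1 (((c / f (v - B v)) • v) - B ((c / f (v - B v)) • v))
      (subset_closure ⟨_, Y.smul_mem _ hv, rfl⟩)
    rw [map_smul, ← smul_sub, map_smul, smul_eq_mul, div_mul_cancel₀ _ hne] at h
    exact lt_irrefl _ h
  have hc : 0 < c := by
    have h := hf1 0 (subset_closure ⟨0, Y.zero_mem, by simp⟩)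
    simpa using h
  have hfe : f e = 0 := by rw [← hre]; exact hf0 r hrY
  have hfu : ∀ n, f (u n) = 0 := by
    intro n
    have h1 : f (u n) = μ n * f (B (u n)) + f e := by
      conv_lhs => rw [hu n]
      rw [map_add, map_smul, smul_eq_mul]
    have h2 : f (u n) - f (B (u n)) = 0 := by
      rw [← map_sub]
      exact hf0 _ (huY n)
    have h3 : (1 - μ n) * f (u n) = 0 := by
      rw [hfe] at h1
      have : f (B (u n)) = f (u n) := by linarith
      rw [this] at h1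
      linarith
    rcases mul_eq_zero.1 h3 with h | h
    · have := hμ1 n
      linarith
    · exact h
  have hfr : f r = 0 := by
    have t := hr f
    simp_rw [hfu] at t
    exact (tendsto_nhds_unique t tendsto_const_nhds)
  linarith

omit [CompleteSpace X] in
/-- Lemma E', no reflexivity: if the bounded solutions have a weak cluster point `r ∈ Y` along some
filter finer than `atTop`, they converge to `r` in norm. -/
theorem abel_ergodic'
    (Y : Submodule ℝ X) (B : X →L[ℝ] X)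
    (hB : ∀ v ∈ Y, ‖B v‖ ≤ ‖v‖) (e : X)
    (μ : ℕ → ℝ) (hμ0 : ∀ n, 0 < μ n) (hμ1 : ∀ n, μ n < 1) (hμ : Tendsto μ atTop (𝓝 1))
    (u : ℕ → X) (huY : ∀ n, u n ∈ Y) (hu : ∀ n, u n = μ n • B (u n) + e)
    (R : ℝ) (huR : ∀ n, ‖u n‖ ≤ R)
    (l : Filter ℕ) [l.NeBot] (hl : l ≤ atTop) (r : X) (hrY : r ∈ Y) (hr : WTendsto u l r) :
    Tendsto u atTop (𝓝 r) := by
  have hre : r - B r = e := ergodic_limit_eq B e _ hl μ hμ u hu R
    (fun n => (hB _ (huY n)).trans (huR n)) r hr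
  have hcl := ergodic_mem_closure Y B e _ μ hμ1 u huY hu r hrY hr hre
  -- the auxiliary sequence
  have haY : ∀ n, r - μ n • u n ∈ Y := fun n => Y.sub_mem hrY (Y.smul_mem _ (huY n))
  have haEq : ∀ n, r - μ n • u n = μ n • B (r - μ n • u n) + (1 - μ n) • r := by
    intro n
    have h1 : B r = r - e := by rw [← hre]; abel
    have h2 : μ n • B (u n) = u n - e := by
      have := hu n
      rw [eq_sub_iff_add_eq]
      exact this.symm
    rw [map_sub, map_smul, smul_sub, h1, smul_smul, mul_smul, h2]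
    module
  have ha0 : Tendsto (fun n => r - μ n • u n) atTop (𝓝 0) := by
    rw [Metric.tendsto_atTop]
    intro ε hε
    obtain ⟨x, ⟨v, hv, rfl⟩, hx⟩ := Metric.mem_closure_iff.1 hcl (ε / 2) (by linarith)
    rw [dist_eq_norm] at hx
    have t4 : Tendsto (fun n => 2 * (1 - μ n) * ‖v‖) atTop (𝓝 0) := by
      have := (((tendsto_const_nhds (x := (1 : ℝ))).sub hμ).const_mul 2).mul_const ‖v‖
      simpa using this
    obtain ⟨N, hN⟩ := (Metric.tendsto_atTop.1 t4) (ε / 2) (by linarith)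
    refine ⟨N, fun n hn => ?_⟩
    have h1 := ergodic_norm_le Y B hB (hμ0 n) (hμ1 n) (haY n) hv (haEq n) hx.le
    have h2 := hN n hn
    rw [Real.dist_eq, sub_zero] at h2
    have h3 := le_abs_self (2 * (1 - μ n) * ‖v‖)
    rw [dist_eq_norm, sub_zero]
    linarith
  have hu' : ∀ n, u n = (μ n)⁻¹ • (r - (r - μ n • u n)) := by
    intro n
    rw [sub_sub_cancel, smul_smul, inv_mul_cancel₀ (hμ0 n).ne', one_smul]
  have t5 : Tendsto (fun n => (μ n)⁻¹ • (r - (r - μ n • u n))) atTop (𝓝 ((1 : ℝ)⁻¹ • (r - 0))) :=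
    (hμ.inv₀ one_ne_zero).smul (tendsto_const_nhds.sub ha0)
  simp only [inv_one, one_smul, sub_zero] at t5
  exact t5.congr fun n => (hu' n).symm

/-- Lemma E (an Abel-type mean ergodic lemma). -/
theorem abel_ergodic
    (hrefl : Function.Surjective (NormedSpace.inclusionInDoubleDual ℝ X))
    (Y : Submodule ℝ X) (hY : IsClosed (Y : Set X)) (B : X →L[ℝ] X)
    (_hBY : ∀ v ∈ Y, B v ∈ Y) (hB : ∀ v ∈ Y, ‖B v‖ ≤ ‖v‖) (e : X)
    (μ : ℕ → ℝ) (hμ0 : ∀ n, 0 < μ n) (hμ1 : ∀ n, μ n < 1) (hμ : Tendsto μ atTop (𝓝 1))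
    (u : ℕ → X) (huY : ∀ n, u n ∈ Y) (hu : ∀ n, u n = μ n • B (u n) + e)
    (R : ℝ) (huR : ∀ n, ‖u n‖ ≤ R) :
    ∃ r ∈ Y, Tendsto u atTop (𝓝 r) := by
  have hl : ((hyperfilter ℕ : Ultrafilter ℕ) : Filter ℕ) ≤ atTop := Nat.hyperfilter_le_atTop
  obtain ⟨r, hrC, hr⟩ := exists_wlimit hrefl (C := (Y : Set X) ∩ Metric.closedBall 0 R)
    (hY.inter Metric.isClosed_closedBall)
    (Metric.isBounded_closedBall.subset Set.inter_subset_right)
    (Y.convex.inter (convex_closedBall 0 R)) (hyperfilter ℕ) u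
    (Eventually.of_forall fun n => ⟨huY n, by simpa using huR n⟩)
  exact ⟨r, hrC.1, abel_ergodic' Y B hB e μ hμ0 hμ1 hμ u huY hu R huR _ hl r hrC.1 hr⟩

end Vale.Agent.P079R
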