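import Vale.Agent.P079R.Tangent
import Vale.Agent.P079R.Ergodic
import Vale.Agent.P079.Resolvent
import Vale.Agent.P079.Dual

open Filter Topology Set

namespace Vale.Agent.P079R

open Vale.Agent.P079

variable {X : Type*} [NormedAddCommGroup X] [NormedSpace ℝ X]

/-- pointwise (weak star) limits of bounded sequences of functionals along an ultrafilter
(Banach-Alaoglu) -/
theorem exists_wstar_limit
    (D : ℕ → StrongDual ℝ X) {M : ℝ} (hD : ∀ n, ‖D n‖ ≤ M) (U : Ultrafilter ℕ) :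
    ∃ D' : StrongDual ℝ X, ‖D'‖ ≤ M ∧ ∀ v, Tendsto (fun n => D n v) U (𝓝 (D' v)) := by
  have hK := WeakDual.isCompact_closedBall (𝕜 := ℝ) (0 : StrongDual ℝ X) M
  have hle : ((U.map (fun n => StrongDual.toWeakDual (D n)) : Ultrafilter (WeakDual ℝ X)) :
      Filter (WeakDual ℝ X)) ≤ 𝓟 (WeakDual.toStrongDual ⁻¹' Metric.closedBall 0 M) := by
    rw [le_principal_iff]
    simp only [Ultrafilter.coe_map, mem_map]
    refine Eventually.of_forall fun n => ?_
    show WeakDual.toStrongDual (StrongDual.toWeakDual (D n)) ∈ Metric.closedBall 0 M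
    simpa using hD n
  obtain ⟨φ, hφ, hlim⟩ := hK.ultrafilter_le_nhds _ hle
  refine ⟨WeakDual.toStrongDual φ, by simpa using hφ, fun v => ?_⟩
  have h1 : Tendsto (fun n => StrongDual.toWeakDual (D n)) U (𝓝 φ) := hlim
  exact ((WeakDual.eval_continuous v).tendsto φ).comp h1

/-- the contraction inequality passes to the closure of the span -/
theorem contraction_closure {Y₀ : Submodule ℝ X} {B : X →L[ℝ] X}
    (h : ∀ v ∈ Y₀, ‖B v‖ ≤ ‖v‖) : ∀ v ∈ Y₀.topologicalClosure, ‖B v‖ ≤ ‖v‖ := by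
  intro v hv
  have hcl : IsClosed {v : X | ‖B v‖ ≤ ‖v‖} :=
    isClosed_le (by fun_prop) continuous_norm
  have hsub : (Y₀ : Set X) ⊆ {v : X | ‖B v‖ ≤ ‖v‖} := fun w hw => h w hw
  have : closure (Y₀ : Set X) ⊆ {v : X | ‖B v‖ ≤ ‖v‖} := closure_minimal hsub hcl
  exact this (by rwa [← Submodule.topologicalClosure_coe])

theorem maps_closure {Y₀ : Submodule ℝ X} {B : X →L[ℝ] X}
    (h : ∀ v ∈ Y₀, B v ∈ Y₀) : ∀ v ∈ Y₀.topologicalClosure, B v ∈ Y₀.topologicalClosure := by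
  intro v hv
  have hv' : v ∈ closure (Y₀ : Set X) := by rwa [← Submodule.topologicalClosure_coe]
  have := map_mem_closure B.continuous hv' (t := (Y₀ : Set X)) (fun w hw => h w hw)
  rwa [← Submodule.topologicalClosure_coe] at this

/-- linear resolvent on a closed subspace -/
theorem exists_lin_resolvent [CompleteSpace X] (Y : Submodule ℝ X) (hY : IsClosed (Y : Set X))
    (B : X →L[ℝ] X) (hBY : ∀ v ∈ Y, B v ∈ Y) (hB : ∀ v ∈ Y, ‖B v‖ ≤ ‖v‖) {c : X} (hc : c ∈ Y)
    {μ : ℝ} (hμ0 : 0 ≤ μ) (hμ1 : μ < 1) : ∃ u ∈ Y, u = μ • B u + c := by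
  set f : X → X := fun v => μ • B v + c with hf
  have hmaps : MapsTo f (Y : Set X) (Y : Set X) := by
    intro v hv
    exact Y.add_mem (Y.smul_mem _ (hBY v hv)) hc
  have hcontr : ContractingWith (Real.toNNReal μ) (hmaps.restrict f (Y : Set X) (Y : Set X)) := by
    refine ⟨?_, ?_⟩
    · rw [← NNReal.coe_lt_coe, Real.coe_toNNReal _ hμ0]
      simpa using hμ1
    · apply LipschitzWith.of_dist_le_mul
      intro a b
      rw [Subtype.dist_eq, Subtype.dist_eq, dist_eq_norm, dist_eq_norm, Real.coe_toNNReal _ hμ0]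
      simp only [MapsTo.val_restrict_apply, hf]
      have : μ • B a + c - (μ • B b + c) = μ • B ((a : X) - b) := by
        rw [map_sub, smul_sub]; abel
      rw [this, norm_smul, Real.norm_of_nonneg hμ0]
      exact mul_le_mul_of_nonneg_left (hB _ (Y.sub_mem a.2 b.2)) hμ0
  obtain ⟨u, huY, hfix, -⟩ := hcontr.exists_fixedPoint' hY.isComplete hmaps hc
    (edist_ne_top _ _)
  exact ⟨u, huY, hfix.symm⟩

/-- a priori bound for the resolvent points of the limiting affine map -/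
theorem resolvent_bound {Y : Submodule ℝ X} {A : X →L[ℝ] X} {e p : X} {R : ℝ}
    (D : ℕ → StrongDual ℝ X) (D' : StrongDual ℝ X) (U : Ultrafilter ℕ)
    (hDD' : ∀ v, Tendsto (fun n => D n v) U (𝓝 (D' v)))
    (hD : ∀ n, ∀ v ∈ Y, ‖A v + D n v • e‖ ≤ ‖v‖)
    (y : ℕ → X) (hyY : ∀ n, y n ∈ Y) (hyR : ∀ n, ‖y n‖ ≤ R)
    (δ : ℕ → ℝ) (hδ : Tendsto δ U (𝓝 0))
    (hy : ∀ n, ‖A (y n) + D n (y n) • e + p - y n‖ ≤ δ n)
    {μ : ℝ} (hμ0 : 0 ≤ μ) (hμ1 : μ < 1) {z : X} (hzY : z ∈ Y)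
    (hz : z = μ • (A z + D' z • e + p)) : ‖z‖ ≤ 2 * R := by
  have h1μ : 0 < 1 - μ := by linarith
  have key : ∀ m, (1 - μ) * ‖z‖ ≤ 2 * (1 - μ) * R + (δ m + |D' z - D m z| * ‖e‖) := by
    intro m
    have hdec : z - y m = μ • (A (z - y m) + D m (z - y m) • e)
        + μ • (A (y m) + D m (y m) • e + p - y m) - (1 - μ) • y m
        + μ • ((D' z - D m z) • e) := by
      nth_rewrite 1 [hz]
      simp only [map_sub, sub_smul, smul_sub, smul_add, one_smul]
      abel
    have hδ0 : 0 ≤ δ m := le_trans (norm_nonneg _) (hy m)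
    have hn : ‖z - y m‖ ≤ μ * ‖z - y m‖ + μ * δ m + (1 - μ) * R + μ * (|D' z - D m z| * ‖e‖) := by
      calc ‖z - y m‖ = ‖μ • (A (z - y m) + D m (z - y m) • e)
        + μ • (A (y m) + D m (y m) • e + p - y m) - (1 - μ) • y m
        + μ • ((D' z - D m z) • e)‖ := by rw [← hdec]
        _ ≤ ‖μ • (A (z - y m) + D m (z - y m) • e)‖
            + ‖μ • (A (y m) + D m (y m) • e + p - y m)‖ + ‖(1 - μ) • y m‖
            + ‖μ • ((D' z - D m z) • e)‖ := by
            refine (norm_add_le _ _).trans ?_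
            gcongr
            refine (norm_sub_le _ _).trans ?_
            gcongr
            exact norm_add_le _ _
        _ = μ * ‖A (z - y m) + D m (z - y m) • e‖
            + μ * ‖A (y m) + D m (y m) • e + p - y m‖ + (1 - μ) * ‖y m‖
            + μ * (|D' z - D m z| * ‖e‖) := by
            rw [norm_smul, norm_smul, norm_smul, norm_smul, norm_smul, Real.norm_of_nonneg hμ0,
              Real.norm_of_nonneg h1μ.le, Real.norm_eq_abs]
        _ ≤ μ * ‖z - y m‖ + μ * δ m + (1 - μ) * R + μ * (|D' z - D m z| * ‖e‖) := by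
            have a1 := hD m (z - y m) (Y.sub_mem hzY (hyY m))
            have a2 := hy m
            have a3 := hyR m
            gcongr
    have hq : 0 ≤ |D' z - D m z| * ‖e‖ := by positivity
    have h2 : (1 - μ) * ‖z - y m‖ ≤ δ m + (1 - μ) * R + |D' z - D m z| * ‖e‖ := by
      have b1 : μ * δ m ≤ δ m := by nlinarith
      have b2 : μ * (|D' z - D m z| * ‖e‖) ≤ |D' z - D m z| * ‖e‖ := by nlinarith
      linarith
    have h3 : ‖z‖ ≤ ‖z - y m‖ + R := by
      calc ‖z‖ = ‖(z - y m) + y m‖ := by congr 1; abel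
        _ ≤ ‖z - y m‖ + ‖y m‖ := norm_add_le _ _
        _ ≤ ‖z - y m‖ + R := by gcongr; exact hyR m
    have h4 : (1 - μ) * ‖z‖ ≤ (1 - μ) * (‖z - y m‖ + R) := mul_le_mul_of_nonneg_left h3 h1μ.le
    linarith
  have hlim : Tendsto (fun m => 2 * (1 - μ) * R + (δ m + |D' z - D m z| * ‖e‖)) U
      (𝓝 (2 * (1 - μ) * R + (0 + |D' z - D' z| * ‖e‖))) := by
    refine tendsto_const_nhds.add (hδ.add ?_)
    exact ((tendsto_const_nhds.sub (hDD' z)).abs).mul_const _
  simp only [sub_self, abs_zero, zero_mul, add_zero] at hlim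
  have h5 : (1 - μ) * ‖z‖ ≤ 2 * (1 - μ) * R := ge_of_tendsto' hlim key
  have h6 : (1 - μ) * ‖z‖ ≤ (1 - μ) * (2 * R) := by linarith
  exact le_of_mul_le_mul_left h6 h1μ

end Vale.Agent.P079R
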