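import Mathlib

/-!
# P079R: fixed points of rank-one nonlinear perturbations of affine maps in reflexive spaces

Part I (files Defs, SpanRep, QBase, QAdd, QLe, Tangent): tangent functionals.
`K` convex, `0 ∈ K`, `x ↦ A x + G x • e` nonexpansive on `K`.  For `x y ∈ K` we find a bounded
functional `D` with `‖A v + D v • e‖ ≤ ‖v‖` on `span K` and `D (y - x) = G y - G x`.
No differentiability is used: a zig-zag (telescoping) inequality + M. Riesz extension theorem.
-/

open Filter Topology Set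

namespace Vale.Agent.P079R

variable {X : Type*} [NormedAddCommGroup X] [NormedSpace ℝ X]

/-- `t` is an upper bound for the admissible slopes in direction `v`. -/
def UB (A : X →L[ℝ] X) (e : X) (v : X) (t : ℝ) : Prop :=
  ∀ s : ℝ, ‖A v + s • e‖ ≤ ‖v‖ → s ≤ t

/-- the additive invariant: from every point `(1-η) a + η z` one can move by `ε w`
(`ε ≤ c η`) inside `K`, and `G` increases by at most `ε τ`. -/
def Q (K : Set X) (G : X → ℝ) (w : X) (τ : ℝ) : Prop :=
  ∃ z ∈ K, ∃ c : ℝ, 0 < c ∧ ∀ a ∈ K, ∀ η : ℝ, 0 ≤ η → η ≤ 1 → ∀ ε : ℝ, 0 ≤ ε → ε ≤ c * η →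
    (1 - η) • a + η • z + ε • w ∈ K ∧
    G ((1 - η) • a + η • z + ε • w) - G ((1 - η) • a + η • z) ≤ ε * τ

end Vale.Agent.P079R
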