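import Vale.Agent.P079R.Main
import Vale.Agent.P079W.Final

open Filter Topology Set

namespace Vale.Agent.P079R

open Vale.Agent.P079

variable {X : Type*} [NormedAddCommGroup X] [NormedSpace ℝ X] [CompleteSpace X]

/-- There is a point of `C` whose displacement is a multiple of `e`
(a weak limit of approximate fixed points). -/
theorem exists_base_point
    {C : Set X} {T : X → X} (hC : InvSet T C)
    (hW : ∀ y : ℕ → X, (∀ n, y n ∈ C) →
      ∃ x ∈ C, WTendsto y ((Filter.hyperfilter ℕ : Ultrafilter ℕ) : Filter ℕ) x)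
    (hT : ∀ a ∈ C, ∀ b ∈ C, ‖T a - T b‖ ≤ ‖a - b‖)
    (A : X →L[ℝ] X) (e : X)
    (hform : ∀ a ∈ C, ∀ b ∈ C, ∃ s : ℝ, T a - T b = A (a - b) + s • e) :
    ∃ x₀ ∈ C, ∃ σ : ℝ, T x₀ - x₀ = σ • e := by
  obtain ⟨w₀, hw₀⟩ := hC.nonempty
  obtain ⟨r, hr⟩ := Metric.isBounded_iff.1 hC.bounded
  have hr' : ∀ a ∈ C, ∀ b ∈ C, ‖a - b‖ ≤ r := fun a ha b hb => by
    rw [← dist_eq_norm]; exact hr ha hb
  have hafps : ∀ n : ℕ, ∃ y ∈ C, ‖y - T y‖ ≤ 1 / ((n : ℝ) + 1) * r := by
    intro n
    have ht0 : (0 : ℝ) < 1 / ((n : ℝ) + 1) := by positivity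
    have ht1 : 1 / ((n : ℝ) + 1) ≤ 1 := by
      rw [div_le_one (by positivity)]
      have : (0 : ℝ) ≤ n := Nat.cast_nonneg n
      linarith
    obtain ⟨y, hyC, hy⟩ := exists_resolvent hC hT hw₀ ht0 ht1
    exact ⟨y, hyC, resolvent_displacement hC hr' hw₀ hyC ht0 hy⟩
  choose y hyC hy using hafps
  have hδ : Tendsto (fun n : ℕ => 1 / ((n : ℝ) + 1) * r) atTop (𝓝 0) := by
    have := (tendsto_one_div_add_atTop_nhds_zero_nat (𝕜 := ℝ)).mul_const r
    simpa using this
  have hdisp : Tendsto (fun n => y n - T (y n)) atTop (𝓝 0) :=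
    squeeze_zero_norm hy hδ
  let U : Ultrafilter ℕ := Filter.hyperfilter ℕ
  have hU : (U : Filter ℕ) ≤ atTop := Nat.hyperfilter_le_atTop
  obtain ⟨x₀, hx₀, hw⟩ := hW y hyC
  refine ⟨x₀, hx₀, ?_⟩
  choose s hs using fun n => hform (y n) (hyC n) x₀ hx₀
  -- weak limits
  have hA : ∀ f : StrongDual ℝ X, Tendsto (fun n => f (A (y n - x₀))) U (𝓝 0) := by
    intro f
    have h1 := hw (f.comp A)
    have h2 : Tendsto (fun n => (f.comp A) (y n) - (f.comp A) x₀) U (𝓝 0) := by
      have := h1.sub_const ((f.comp A) x₀)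
      simpa using this
    refine h2.congr (fun n => ?_)
    simp [map_sub]
  have hd : ∀ f : StrongDual ℝ X, Tendsto (fun n => f (y n - T (y n))) U (𝓝 0) := by
    intro f
    have := (f.continuous.tendsto 0).comp (hdisp.mono_left hU)
    rw [map_zero] at this
    exact this
  have hid : ∀ n, y n - T x₀ = (y n - T (y n)) + A (y n - x₀) + s n • e := by
    intro n
    have := hs n
    calc y n - T x₀ = (y n - T (y n)) + (T (y n) - T x₀) := by abel
      _ = (y n - T (y n)) + A (y n - x₀) + s n • e := by rw [this]; abel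
  by_cases he : e = 0
  · refine ⟨0, ?_⟩
    rw [zero_smul, sub_eq_zero]
    symm
    rw [← sub_eq_zero]
    apply (SeparatingDual.eq_zero_iff_forall_dual_eq_zero (R := ℝ) _).2
    intro f
    have h1 : Tendsto (fun n => f (y n - T x₀)) U (𝓝 (f (x₀ - T x₀))) := by
      have := (hw f).sub_const (f (T x₀))
      simpa [map_sub] using this
    have h2 : Tendsto (fun n => f (y n - T x₀)) U (𝓝 (0 + 0)) := by
      refine ((hd f).add (hA f)).congr (fun n => ?_)
      rw [hid n, he]
      simp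
    rw [add_zero] at h2
    exact tendsto_nhds_unique h1 h2
  · have hepos : 0 < ‖e‖ := norm_pos_iff.2 he
    have hsb : ∀ n, s n ∈ Icc (-((1 + ‖A‖) * r / ‖e‖)) ((1 + ‖A‖) * r / ‖e‖) := by
      intro n
      have h1 : |s n| * ‖e‖ ≤ (1 + ‖A‖) * r := by
        calc |s n| * ‖e‖ = ‖s n • e‖ := by rw [norm_smul, Real.norm_eq_abs]
          _ = ‖(T (y n) - T x₀) - A (y n - x₀)‖ := by rw [hs n]; congr 1; abel
          _ ≤ ‖T (y n) - T x₀‖ + ‖A (y n - x₀)‖ := norm_sub_le _ _
          _ ≤ r + ‖A‖ * r := by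
              have a1 := hT _ (hyC n) _ hx₀
              have a2 := hr' _ (hyC n) _ hx₀
              have a3 := A.le_opNorm (y n - x₀)
              have a4 : ‖A‖ * ‖y n - x₀‖ ≤ ‖A‖ * r := mul_le_mul_of_nonneg_left a2 (norm_nonneg _)
              linarith
          _ = (1 + ‖A‖) * r := by ring
      have h2 : |s n| ≤ (1 + ‖A‖) * r / ‖e‖ := by rwa [le_div_iff₀ hepos]
      exact abs_le.1 h2
    obtain ⟨σ, -, hσ⟩ := (isCompact_Icc (a := -((1 + ‖A‖) * r / ‖e‖))
      (b := (1 + ‖A‖) * r / ‖e‖)).ultrafilter_le_nhds (U.map s) (by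
        rw [le_principal_iff]
        simp only [Ultrafilter.coe_map, mem_map]
        exact Eventually.of_forall hsb)
    have hσ' : Tendsto s U (𝓝 σ) := hσ
    refine ⟨-σ, ?_⟩
    have hkey : x₀ - T x₀ = σ • e := by
      rw [← sub_eq_zero]
      apply (SeparatingDual.eq_zero_iff_forall_dual_eq_zero (R := ℝ) _).2
      intro f
      have h1 : Tendsto (fun n => f (y n - T x₀)) U (𝓝 (f (x₀ - T x₀))) := by
        have := (hw f).sub_const (f (T x₀))
        simpa [map_sub] using this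
      have h2 : Tendsto (fun n => f (y n - T x₀)) U (𝓝 (0 + 0 + σ * f e)) := by
        refine (((hd f).add (hA f)).add (hσ'.mul_const (f e))).congr (fun n => ?_)
        rw [hid n]
        simp
      have h3 := tendsto_nhds_unique h1 h2
      rw [map_sub, h3]
      simp
    rw [neg_smul, ← hkey]; abel

/-- **Theorem B.**  In a reflexive space, a nonexpansive self-map of a closed bounded convex set
which is a rank-one perturbation of an affine map has a fixed point. -/
theorem fixedPoint_rankOne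
    {C : Set X} {T : X → X} (hC : InvSet T C)
    (hW : ∀ y : ℕ → X, (∀ n, y n ∈ C) →
      ∃ x ∈ C, WTendsto y ((Filter.hyperfilter ℕ : Ultrafilter ℕ) : Filter ℕ) x)
    (hT : ∀ a ∈ C, ∀ b ∈ C, ‖T a - T b‖ ≤ ‖a - b‖)
    (A : X →L[ℝ] X) (e : X)
    (hform : ∀ a ∈ C, ∀ b ∈ C, ∃ s : ℝ, T a - T b = A (a - b) + s • e) :
    ∃ x ∈ C, T x = x := by
  classical
  obtain ⟨x₀, hx₀, σ, hσ⟩ := exists_base_point hC hW hT A e hform
  set K : Set X := (fun x => x + x₀) ⁻¹' C with hKdef
  set T' : X → X := fun x => T (x + x₀) - x₀ with hT'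
  have hK : InvSet T' K :=
    { nonempty := ⟨0, by simpa [hKdef] using hx₀⟩
      closed := hC.closed.preimage (by fun_prop)
      bounded := by
        obtain ⟨R, hR⟩ := hC.bounded.exists_norm_le
        refine (Metric.isBounded_closedBall (x := (0 : X)) (r := R + ‖x₀‖)).subset ?_
        intro x hx
        rw [mem_closedBall_zero_iff]
        calc ‖x‖ = ‖(x + x₀) - x₀‖ := by congr 1; abel
          _ ≤ ‖x + x₀‖ + ‖x₀‖ := norm_sub_le _ _
          _ ≤ R + ‖x₀‖ := by gcongr; exact hR _ hx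
      convex := by
        intro a ha b hb α β hα hβ hαβ
        show α • a + β • b + x₀ ∈ C
        have : α • a + β • b + x₀ = α • (a + x₀) + β • (b + x₀) := by
          have h1 : x₀ = α • x₀ + β • x₀ := by rw [← add_smul, hαβ, one_smul]
          nth_rewrite 1 [h1]
          simp only [smul_add]; abel
        rw [this]
        exact hC.convex ha hb hα hβ hαβ
      maps := by
        intro x hx
        show T (x + x₀) - x₀ + x₀ ∈ C
        rw [sub_add_cancel]
        exact hC.maps hx }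
  have hT'ne : ∀ a ∈ K, ∀ b ∈ K, ‖T' a - T' b‖ ≤ ‖a - b‖ := by
    intro a ha b hb
    have h1 : T' a - T' b = T (a + x₀) - T (b + x₀) := by simp only [hT']; abel
    have h2 : a - b = (a + x₀) - (b + x₀) := by abel
    rw [h1, h2]
    exact hT _ ha _ hb
  have hex : ∀ x : X, ∃ s : ℝ, x ∈ K → T (x + x₀) - T x₀ = A x + s • e := by
    intro x
    by_cases hx : x ∈ K
    · obtain ⟨s, hs⟩ := hform _ hx _ hx₀
      refine ⟨s, fun _ => ?_⟩
      rw [hs, add_sub_cancel_right]
    · exact ⟨0, fun h => absurd h hx⟩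
  choose g hg using hex
  have hWK : ∀ y : ℕ → X, (∀ n, y n ∈ K) →
      ∃ x ∈ K, WTendsto y ((Filter.hyperfilter ℕ : Ultrafilter ℕ) : Filter ℕ) x := by
    intro y hy
    obtain ⟨x, hxC, hx⟩ := hW (fun n => y n + x₀) hy
    refine ⟨x - x₀, by show x - x₀ + x₀ ∈ C; rwa [sub_add_cancel], ?_⟩
    have := hx.sub (wtendsto_const _ x₀)
    simpa using this
  obtain ⟨x, hxK, hx⟩ := core hK hWK hT'ne (by simpa [hKdef] using hx₀) A e (fun x => g x + σ)
    (by
      intro x hx
      show T (x + x₀) - x₀ = A x + (g x + σ) • e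
      have h1 := hg x hx
      calc T (x + x₀) - x₀ = (T (x + x₀) - T x₀) + (T x₀ - x₀) := by abel
        _ = A x + (g x + σ) • e := by rw [h1, hσ, add_smul]; abel)
  refine ⟨x + x₀, hxK, ?_⟩
  have : T (x + x₀) - x₀ = x := hx
  exact sub_eq_iff_eq_add.1 this

/-- subtype version, weakly compact convex sets in arbitrary Banach spaces -/
theorem wfpp_rankOne_subtype
    (C : Set X) (hne : C.Nonempty) (hconv : Convex ℝ C)
    (hCc : IsCompact (toWeakSpace ℝ X '' C))
    (T : C → C) (hT : ∀ a b : C, ‖(T a : X) - T b‖ ≤ ‖(a : X) - b‖)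
    (A : X →L[ℝ] X) (e : X)
    (hform : ∀ a b : C, ∃ s : ℝ, (T a : X) - T b = A ((a : X) - b) + s • e) :
    ∃ x : C, T x = x := by
  classical
  set T' : X → X := fun x => if h : x ∈ C then (T ⟨x, h⟩ : X) else x with hT'
  have hval : ∀ (x : X) (h : x ∈ C), T' x = (T ⟨x, h⟩ : X) := by
    intro x h
    simp only [hT', dif_pos h]
  have hinv : InvSet T' C :=
    { nonempty := hne
      closed := isClosed_of_weaklyCompact hCc
      bounded := isBounded_of_weaklyCompact hCc
      convex := hconv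
      maps := by
        intro x hx
        rw [hval x hx]
        exact (T ⟨x, hx⟩).2 }
  have hnon : ∀ a ∈ C, ∀ b ∈ C, ‖T' a - T' b‖ ≤ ‖a - b‖ := by
    intro a ha b hb
    rw [hval a ha, hval b hb]
    exact hT ⟨a, ha⟩ ⟨b, hb⟩
  obtain ⟨x, hxC, hx⟩ := fixedPoint_rankOne hinv
    (fun y hy => exists_wlimit_of_isCompact hCc _ y (Eventually.of_forall hy)) hnon A e (by
    intro a ha b hb
    rw [hval a ha, hval b hb]
    exact hform ⟨a, ha⟩ ⟨b, hb⟩)
  refine ⟨⟨x, hxC⟩, ?_⟩
  apply Subtype.ext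
  rw [← hval x hxC]
  exact hx

end Vale.Agent.P079R
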