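import Vale.Agent.P079R.Core

open Filter Topology Set

namespace Vale.Agent.P079R

open Vale.Agent.P079

variable {X : Type*} [NormedAddCommGroup X] [NormedSpace ℝ X] [CompleteSpace X]

/-- Core theorem (normalised so that `0 ∈ K`). -/
theorem core
    {K : Set X} {T : X → X} (hK : InvSet T K)
    (hW : ∀ y : ℕ → X, (∀ n, y n ∈ K) →
      ∃ x ∈ K, WTendsto y ((Filter.hyperfilter ℕ : Ultrafilter ℕ) : Filter ℕ) x)
    (hT : ∀ a ∈ K, ∀ b ∈ K, ‖T a - T b‖ ≤ ‖a - b‖) (h0 : (0 : X) ∈ K)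
    (A : X →L[ℝ] X) (e : X) (G : X → ℝ) (hform : ∀ x ∈ K, T x = A x + G x • e) :
    ∃ x ∈ K, T x = x := by
  by_cases he : e = 0
  · exact ⟨0, h0, by rw [hform 0 h0]; simp [he]⟩
  by_cases hG : G 0 = 0
  · exact ⟨0, h0, by rw [hform 0 h0]; simp [hG]⟩
  have hepos : 0 < ‖e‖ := norm_pos_iff.2 he
  obtain ⟨R, hR⟩ := hK.bounded.exists_norm_le
  have hR0 : 0 ≤ R := le_trans (norm_nonneg _) (hR 0 h0)
  have hne : ∀ a ∈ K, ∀ b ∈ K, ‖A (a - b) + (G a - G b) • e‖ ≤ ‖a - b‖ := by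
    intro a ha b hb
    have : A (a - b) + (G a - G b) • e = T a - T b := by
      rw [hform a ha, hform b hb, map_sub, sub_smul]; abel
    rw [this]; exact hT a ha b hb
  set Y₀ : Submodule ℝ X := Submodule.span ℝ K with hY₀
  set Y : Submodule ℝ X := Y₀.topologicalClosure with hY
  have hYcl : IsClosed (Y : Set X) := Submodule.isClosed_topologicalClosure _
  have hKY₀ : ∀ x ∈ K, x ∈ Y₀ := fun x hx => Submodule.subset_span hx
  have hY₀Y : ∀ x ∈ Y₀, x ∈ Y := fun x hx => Submodule.le_topologicalClosure _ hx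
  have hKY : ∀ x ∈ K, x ∈ Y := fun x hx => hY₀Y x (hKY₀ x hx)
  have heY₀ : e ∈ Y₀ := by
    have h1 : T 0 = G 0 • e := by rw [hform 0 h0]; simp
    have h2 : e = (G 0)⁻¹ • T 0 := by rw [h1, smul_smul, inv_mul_cancel₀ hG, one_smul]
    rw [h2]
    exact Y₀.smul_mem _ (hKY₀ _ (hK.maps h0))
  have hAY₀ : ∀ v ∈ Y₀, A v ∈ Y₀ := by
    have : Y₀ ≤ Y₀.comap (A : X →ₗ[ℝ] X) := by
      rw [hY₀, Submodule.span_le]
      intro x hx
      show A x ∈ Y₀
      have : A x = T x - G x • e := by rw [hform x hx]; abel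
      rw [this]
      exact Y₀.sub_mem (hKY₀ _ (hK.maps hx)) (Y₀.smul_mem _ heY₀)
    exact fun v hv => this hv
  -- the resolvent path of `T`
  obtain ⟨μ, hμhalf, hμ1, hμlim⟩ : ∃ μ : ℕ → ℝ, (∀ n, 1 / 2 ≤ μ n) ∧ (∀ n, μ n < 1) ∧
      Tendsto μ atTop (𝓝 1) := by
    refine ⟨fun n => 1 - 1 / ((n : ℝ) + 2), ?_, ?_, ?_⟩
    · intro n
      have : 1 / ((n : ℝ) + 2) ≤ 1 / 2 := by
        apply one_div_le_one_div_of_le (by norm_num)
        have : (0 : ℝ) ≤ n := Nat.cast_nonneg n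
        linarith
      show 1 / 2 ≤ 1 - 1 / ((n : ℝ) + 2)
      linarith
    · intro n
      have : 0 < 1 / ((n : ℝ) + 2) := by positivity
      show 1 - 1 / ((n : ℝ) + 2) < 1
      linarith
    · have h1 : Tendsto (fun n : ℕ => 1 / ((n : ℝ) + 2)) atTop (𝓝 0) := by
        have := tendsto_one_div_add_atTop_nhds_zero_nat (𝕜 := ℝ)
        have h2 := (tendsto_add_atTop_iff_nat 1).2 this
        refine h2.congr (fun n => ?_)
        push_cast
        ring_nf
      have := (tendsto_const_nhds (x := (1 : ℝ))).sub h1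
      rwa [sub_zero] at this
  have hμ0 : ∀ n, 0 < μ n := fun n => lt_of_lt_of_le (by norm_num) (hμhalf n)
  have hres : ∀ n, ∃ y ∈ K, y = μ n • T y := by
    intro n
    obtain ⟨y, hyK, hy⟩ := exists_resolvent hK hT h0 (t := 1 - μ n) (by linarith [hμ1 n])
      (by linarith [hμ0 n])
    refine ⟨y, hyK, ?_⟩
    rw [smul_zero, zero_add, sub_sub_cancel] at hy
    exact hy
  choose y hyK hy using hres
  set δ : ℕ → ℝ := fun n => (1 - μ n) * R with hδdef
  have hδlim : Tendsto δ atTop (𝓝 0) := by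
    have := ((tendsto_const_nhds (x := (1 : ℝ))).sub hμlim).mul_const R
    simpa using this
  have hdisp : ∀ n, ‖T (y n) - y n‖ ≤ δ n := by
    intro n
    have : T (y n) - y n = (1 - μ n) • T (y n) := by
      nth_rewrite 2 [hy n]
      rw [sub_smul, one_smul]
    rw [this, norm_smul, Real.norm_of_nonneg (by linarith [hμ1 n])]
    exact mul_le_mul_of_nonneg_left (hR _ (hK.maps (hyK n))) (by linarith [hμ1 n])
  -- tangent functionals
  set M : ℝ := (1 + ‖A‖) / ‖e‖ with hM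
  have htan : ∀ n, ∃ D : StrongDual ℝ X, ‖D‖ ≤ M ∧
      (∀ v ∈ Y₀, ‖A v + D v • e‖ ≤ ‖v‖) ∧ D (y n - 0) = G (y n) - G 0 :=
    fun n => exists_tangent hK.convex h0 he hne h0 (hyK n)
  choose D hDM hDP hDy using htan
  let U : Ultrafilter ℕ := Filter.hyperfilter ℕ
  have hU : (U : Filter ℕ) ≤ atTop := Nat.hyperfilter_le_atTop
  obtain ⟨D', hD'M, hDD'⟩ := exists_wstar_limit D hDM U
  have hD'P : ∀ v ∈ Y₀, ‖A v + D' v • e‖ ≤ ‖v‖ := by
    intro v hv
    have h1 : Tendsto (fun n => ‖A v + D n v • e‖) U (𝓝 ‖A v + D' v • e‖) :=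
      (tendsto_const_nhds.add ((hDD' v).smul_const e)).norm
    exact le_of_tendsto' h1 (fun n => hDP n v hv)
  -- operators
  let Bop : StrongDual ℝ X → (X →L[ℝ] X) := fun F => A + F.smulRight e
  have hBop : ∀ F v, Bop F v = A v + F v • e := fun F v => rfl
  have hBopY₀ : ∀ F, ∀ v ∈ Y₀, Bop F v ∈ Y₀ := fun F v hv => by
    rw [hBop]; exact Y₀.add_mem (hAY₀ v hv) (Y₀.smul_mem _ heY₀)
  have hDPY : ∀ n, ∀ v ∈ Y, ‖A v + D n v • e‖ ≤ ‖v‖ := fun n =>
    contraction_closure (B := Bop (D n)) (fun v hv => hDP n v hv)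
  set B : X →L[ℝ] X := Bop D' with hBdef
  have hB : ∀ v ∈ Y, ‖B v‖ ≤ ‖v‖ := contraction_closure (B := B) (fun v hv => hD'P v hv)
  have hBY : ∀ v ∈ Y, B v ∈ Y := maps_closure (hBopY₀ D')
  have heY : e ∈ Y := hY₀Y e heY₀
  -- linear resolvents
  have hlin : ∀ n, ∃ u ∈ Y, u = μ n • B u + e := fun n =>
    exists_lin_resolvent Y hYcl B hBY hB heY (hμ0 n).le (hμ1 n)
  choose u huY hu using hlin
  have hGabs : 0 < |G 0| := abs_pos.2 hG
  have huR : ∀ n, ‖u n‖ ≤ 4 * R / |G 0| := by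
    intro n
    have hz : (μ n * G 0) • u n
        = μ n • (A ((μ n * G 0) • u n) + D' ((μ n * G 0) • u n) • e + G 0 • e) := by
      have h1 : A ((μ n * G 0) • u n) + D' ((μ n * G 0) • u n) • e = (μ n * G 0) • B (u n) := by
        rw [hBdef, hBop, map_smul, map_smul, smul_add, smul_smul, smul_eq_mul]
      rw [h1]
      nth_rewrite 1 [hu n]
      simp only [smul_add, smul_smul]
      congr 1
      congr 1
      ring
    have hb := resolvent_bound (Y := Y) (A := A) (e := e) (p := G 0 • e) (R := R) D D' U hDD' hDPY y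
      (fun n => hKY _ (hyK n)) (fun n => hR _ (hyK n)) δ (hδlim.mono_left hU)
      (by
        intro m
        have h1 : A (y m) + D m (y m) • e + G 0 • e = T (y m) := by
          have := hDy m
          rw [sub_zero] at this
          rw [this, hform _ (hyK m), sub_smul]; abel
        rw [h1]; exact hdisp m)
      (hμ0 n).le (hμ1 n) (Y.smul_mem _ (huY n)) hz
    rw [norm_smul, Real.norm_eq_abs, abs_mul, abs_of_pos (hμ0 n)] at hb
    rw [le_div_iff₀ hGabs]
    have h2 := hμhalf n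
    have h3 : 0 ≤ ‖u n‖ * |G 0| := by positivity
    nlinarith
  -- `y n` is a multiple of `u n`
  set c : ℕ → ℝ := fun n => μ n * (G (y n) - D' (y n)) with hcdef
  have hyc : ∀ n, y n = c n • u n := by
    intro n
    have hd : y n - c n • u n = μ n • B (y n - c n • u n) := by
      have h1 : y n = μ n • (B (y n) + (G (y n) - D' (y n)) • e) := by
        nth_rewrite 1 [hy n]
        rw [hform _ (hyK n), hBdef, hBop, sub_smul]
        congr 1
        abel
      have h2 : c n • u n = μ n • B (c n • u n) + c n • e := by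
        nth_rewrite 1 [hu n]
        rw [smul_add, map_smul, smul_smul, smul_smul, mul_comm]
      rw [map_sub, smul_sub]
      nth_rewrite 1 [h1]
      nth_rewrite 1 [h2]
      rw [smul_add, smul_smul]
      abel
    have hdY : y n - c n • u n ∈ Y := Y.sub_mem (hKY _ (hyK n)) (Y.smul_mem _ (huY n))
    have h3 : ‖y n - c n • u n‖ ≤ μ n * ‖y n - c n • u n‖ := by
      calc ‖y n - c n • u n‖ = ‖μ n • B (y n - c n • u n)‖ := by rw [← hd]
        _ = μ n * ‖B (y n - c n • u n)‖ := by rw [norm_smul, Real.norm_of_nonneg (hμ0 n).le]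
        _ ≤ μ n * ‖y n - c n • u n‖ := mul_le_mul_of_nonneg_left (hB _ hdY) (hμ0 n).le
    have h4 : ‖y n - c n • u n‖ = 0 := by
      have := norm_nonneg (y n - c n • u n)
      have := hμ1 n
      nlinarith
    exact sub_eq_zero.1 (norm_eq_zero.1 h4)
  -- boundedness of `c`
  have hGb : ∀ x ∈ K, |G x| ≤ M * R := by
    intro x hx
    have h1 : |G x| * ‖e‖ ≤ (1 + ‖A‖) * R := by
      calc |G x| * ‖e‖ = ‖G x • e‖ := by rw [norm_smul, Real.norm_eq_abs]
        _ = ‖T x - A x‖ := by rw [hform x hx]; congr 1; abel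
        _ ≤ ‖T x‖ + ‖A x‖ := norm_sub_le _ _
        _ ≤ R + ‖A‖ * R := by
            have := A.le_opNorm x
            have h2 := hR x hx
            have h3 := hR _ (hK.maps hx)
            have h4 : ‖A‖ * ‖x‖ ≤ ‖A‖ * R := mul_le_mul_of_nonneg_left h2 (norm_nonneg _)
            linarith
        _ = (1 + ‖A‖) * R := by ring
    rw [hM, div_mul_eq_mul_div, le_div_iff₀ hepos]
    exact h1
  have hM0 : 0 ≤ M := by positivity
  have hcb : ∀ n, c n ∈ Icc (-(2 * (M * R))) (2 * (M * R)) := by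
    intro n
    have h1 := hGb _ (hyK n)
    have h2 : |D' (y n)| ≤ M * R := by
      calc |D' (y n)| = ‖D' (y n)‖ := (Real.norm_eq_abs _).symm
        _ ≤ ‖D'‖ * ‖y n‖ := D'.le_opNorm _
        _ ≤ M * R := mul_le_mul hD'M (hR _ (hyK n)) (norm_nonneg _) hM0
    have h3 : |c n| ≤ 2 * (M * R) := by
      simp only [hcdef]
      rw [abs_mul, abs_of_pos (hμ0 n)]
      have h4 : |G (y n) - D' (y n)| ≤ 2 * (M * R) := by
        calc |G (y n) - D' (y n)| ≤ |G (y n)| + |D' (y n)| := abs_sub _ _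
          _ ≤ 2 * (M * R) := by linarith
      have h5 := hμ1 n
      have h6 := hμ0 n
      have h7 := abs_nonneg (G (y n) - D' (y n))
      nlinarith
    exact abs_le.1 h3
  obtain ⟨cs, -, hcs⟩ := (isCompact_Icc (a := -(2 * (M * R))) (b := 2 * (M * R))).ultrafilter_le_nhds
    (U.map c) (by
      rw [le_principal_iff]
      simp only [Ultrafilter.coe_map, mem_map]
      exact Eventually.of_forall hcb)
  have hcs' : Tendsto c U (𝓝 cs) := hcs
  obtain ⟨r, hylim⟩ : ∃ r : X, Tendsto y U (𝓝 (cs • r)) := by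
    by_cases hcs0 : cs = 0
    · refine ⟨0, ?_⟩
      rw [smul_zero]
      apply squeeze_zero_norm (a := fun n => |c n| * (4 * R / |G 0|))
      · intro n
        rw [hyc n, norm_smul, Real.norm_eq_abs]
        exact mul_le_mul_of_nonneg_left (huR n) (abs_nonneg _)
      · have := (hcs'.abs).mul_const (4 * R / |G 0|)
        rw [hcs0, abs_zero, zero_mul] at this
        exact this
    · obtain ⟨ys, hysK, hys⟩ := hW y hyK
      have hcne : ∀ᶠ n in (U : Filter ℕ), c n ≠ 0 := hcs'.eventually_ne hcs0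
      have hwu : WTendsto u (U : Filter ℕ) (cs⁻¹ • ys) := by
        intro f
        have h1 : Tendsto (fun n => (c n)⁻¹ * f (y n)) U (𝓝 (cs⁻¹ * f ys)) :=
          (hcs'.inv₀ hcs0).mul (hys f)
        rw [map_smul, smul_eq_mul]
        refine h1.congr' ?_
        filter_upwards [hcne] with n hn
        rw [hyc n, map_smul, smul_eq_mul, ← mul_assoc, inv_mul_cancel₀ hn, one_mul]
      have hur := abel_ergodic' Y B hB e μ hμ0 hμ1 hμlim u huY hu _ huR (U : Filter ℕ) hU
        (cs⁻¹ • ys) (Y.smul_mem _ (hKY _ hysK)) hwu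
      refine ⟨cs⁻¹ • ys, ?_⟩
      have := hcs'.smul (hur.mono_left hU)
      exact this.congr (fun n => (hyc n).symm)
  have hxK : cs • r ∈ K := hK.closed.mem_of_tendsto hylim (Eventually.of_forall hyK)
  refine ⟨cs • r, hxK, ?_⟩
  have hfin : ∀ n, ‖T (cs • r) - cs • r‖ ≤ 2 * ‖y n - cs • r‖ + δ n := by
    intro n
    calc ‖T (cs • r) - cs • r‖
        = ‖(T (cs • r) - T (y n)) + (T (y n) - y n) + (y n - cs • r)‖ := by congr 1; abel
      _ ≤ ‖T (cs • r) - T (y n)‖ + ‖T (y n) - y n‖ + ‖y n - cs • r‖ := norm_add₃_le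
      _ ≤ ‖cs • r - y n‖ + δ n + ‖y n - cs • r‖ := by
          have := hT _ hxK _ (hyK n)
          have := hdisp n
          gcongr
      _ = 2 * ‖y n - cs • r‖ + δ n := by rw [norm_sub_rev]; ring
  have hlim0 : Tendsto (fun n => 2 * ‖y n - cs • r‖ + δ n) U (𝓝 (2 * ‖cs • r - cs • r‖ + 0)) :=
    (((hylim.sub_const _).norm).const_mul 2).add (hδlim.mono_left hU)
  simp only [sub_self, norm_zero, mul_zero, add_zero] at hlim0
  have h9 : ‖T (cs • r) - cs • r‖ ≤ 0 := ge_of_tendsto' hlim0 hfin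
  exact sub_eq_zero.1 (norm_eq_zero.1 (le_antisymm h9 (norm_nonneg _)))

end Vale.Agent.P079R
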