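import Vale.Agent.P079R.Defs

open Filter Topology Set

namespace Vale.Agent.P079R

variable {X : Type*} [NormedAddCommGroup X] [NormedSpace ℝ X]

/-- L4. additivity.
Proof.  Let `(z₁, c₁)`, `(z₂, c₂)` be the witnesses.  Take `z = (1/2) z₁ + (1/2) z₂`,
`c = min c₁ c₂ / 2`.  Let `a ∈ K`, `η ∈ [0,1]`, `0 ≤ ε ≤ c η`, `P = (1-η) a + η z`.
(i) `P = (1 - η/2) a' + (η/2) z₁` with `a' = ((1-η) a + (η/2) z₂) / (1 - η/2) ∈ K`; as
`ε ≤ c₁ (η/2)`, `h₁` gives `P + ε w₁ ∈ K` and `G (P + ε w₁) - G P ≤ ε τ₁`.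
(ii) `P + ε w₁ = (1 - η/2) a'' + (η/2) z₂` with
`a'' = (1 - η') a + η' z₁ + ε' w₁`, `η' = (η/2)/(1 - η/2) ∈ [0,1]`, `ε' = ε / (1 - η/2) ≤ c₁ η'`,
so `a'' ∈ K` by the first part of `h₁`; as `ε ≤ c₂ (η/2)`, `h₂` at `(a'', η/2, ε)` gives
`P + ε w₁ + ε w₂ ∈ K` and `G (P + ε w₁ + ε w₂) - G (P + ε w₁) ≤ ε τ₂`.  Add. -/
theorem Q_add {K : Set X} (hconv : Convex ℝ K) {G : X → ℝ} {w₁ w₂ : X} {τ₁ τ₂ : ℝ}
    (h₁ : Q K G w₁ τ₁) (h₂ : Q K G w₂ τ₂) : Q K G (w₁ + w₂) (τ₁ + τ₂) := by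
  obtain ⟨z₁, hz₁, c₁, hc₁, H₁⟩ := h₁
  obtain ⟨z₂, hz₂, c₂, hc₂, H₂⟩ := h₂
  refine ⟨(1 / 2 : ℝ) • z₁ + (1 / 2 : ℝ) • z₂,
    hconv hz₁ hz₂ (by norm_num) (by norm_num) (by norm_num), min c₁ c₂ / 2,
    by have := lt_min hc₁ hc₂; positivity, ?_⟩
  intro a ha η hη0 hη1 ε hε0 hε
  have hμpos : 0 < 1 - η / 2 := by linarith
  have hμ : (1 - η / 2) ≠ 0 := hμpos.ne'
  have hε1 : ε ≤ c₁ * (η / 2) := by
    have : min c₁ c₂ / 2 * η ≤ c₁ / 2 * η := by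
      gcongr
      exact min_le_left _ _
    linarith
  have hε2 : ε ≤ c₂ * (η / 2) := by
    have : min c₁ c₂ / 2 * η ≤ c₂ / 2 * η := by
      gcongr
      exact min_le_right _ _
    linarith
  -- step (i)
  have ha' : (1 - η / 2)⁻¹ • ((1 - η) • a + (η / 2) • z₂) ∈ K := by
    have h := hconv ha hz₂ (a := (1 - η) / (1 - η / 2)) (b := (η / 2) / (1 - η / 2))
      (div_nonneg (by linarith) hμpos.le) (div_nonneg (by linarith) hμpos.le)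
      (by rw [← add_div, div_eq_one_iff_eq hμ]; ring)
    have e : (1 - η / 2)⁻¹ • ((1 - η) • a + (η / 2) • z₂)
        = ((1 - η) / (1 - η / 2)) • a + ((η / 2) / (1 - η / 2)) • z₂ := by
      rw [smul_add, smul_smul, smul_smul, inv_mul_eq_div, inv_mul_eq_div]
    rw [e]
    exact h
  have E1 : (1 - η / 2) • ((1 - η / 2)⁻¹ • ((1 - η) • a + (η / 2) • z₂)) + (η / 2) • z₁
      = (1 - η) • a + η • ((1 / 2 : ℝ) • z₁ + (1 / 2 : ℝ) • z₂) := by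
    rw [smul_smul, mul_inv_cancel₀ hμ, one_smul]
    module
  have S1 := H₁ _ ha' (η / 2) (by linarith) (by linarith) ε hε0 hε1
  rw [E1] at S1
  -- step (ii)
  have hη' : (η / 2) / (1 - η / 2) ≤ 1 := by
    rw [div_le_one hμpos]
    linarith
  have hε' : ε / (1 - η / 2) ≤ c₁ * ((η / 2) / (1 - η / 2)) := by
    rw [← mul_div_assoc]
    exact div_le_div_of_nonneg_right hε1 hμpos.le
  have ha'' := (H₁ a ha ((η / 2) / (1 - η / 2)) (div_nonneg (by linarith) hμpos.le) hη'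
    (ε / (1 - η / 2)) (div_nonneg hε0 hμpos.le) hε').1
  have E2 : (1 - η / 2) • ((1 - (η / 2) / (1 - η / 2)) • a + ((η / 2) / (1 - η / 2)) • z₁
        + (ε / (1 - η / 2)) • w₁) + (η / 2) • z₂
      = (1 - η) • a + η • ((1 / 2 : ℝ) • z₁ + (1 / 2 : ℝ) • z₂) + ε • w₁ := by
    have m1 : (1 - η / 2) * (1 - (η / 2) / (1 - η / 2)) = 1 - η := by
      rw [mul_sub, mul_div_cancel₀ _ hμ]
      ring
    have m2 : (1 - η / 2) * ((η / 2) / (1 - η / 2)) = η / 2 := mul_div_cancel₀ _ hμ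
    have m3 : (1 - η / 2) * (ε / (1 - η / 2)) = ε := mul_div_cancel₀ _ hμ
    rw [smul_add, smul_add, smul_smul, smul_smul, smul_smul, m1, m2, m3]
    module
  have S2 := H₂ _ ha'' (η / 2) (by linarith) (by linarith) ε hε0 hε2
  rw [E2] at S2
  have E3 : (1 - η) • a + η • ((1 / 2 : ℝ) • z₁ + (1 / 2 : ℝ) • z₂) + ε • (w₁ + w₂)
      = (1 - η) • a + η • ((1 / 2 : ℝ) • z₁ + (1 / 2 : ℝ) • z₂) + ε • w₁ + ε • w₂ := by
    module
  rw [E3]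
  refine ⟨S2.1, ?_⟩
  have := S1.2
  have := S2.2
  linarith

end Vale.Agent.P079R
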