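import Vale.Agent.P079R.Defs

open Filter Topology Set

namespace Vale.Agent.P079R

variable {X : Type*} [NormedAddCommGroup X] [NormedSpace ℝ X]

/-- L2. base case.
Proof: `z = (1/2) • a₀ + (1/2) • b₀`, `c = 1 / (2 * c₀ + 2)`.  If `ε ≤ c η` then `ε c₀ ≤ η / 2` and
`(1-η) a + η z + ε c₀ (a₀ - b₀) = (1-η) a + (η/2 + ε c₀) a₀ + (η/2 - ε c₀) b₀` is a convex
combination of three points of `K`.  For the increment: trivial if `ε = 0`; if `ε > 0`, `hne`
applied to `P + ε w` and `P` gives `‖A (ε w) + ΔG • e‖ ≤ ‖ε w‖`, i.e. (divide by `ε`)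
`‖A w + (ΔG / ε) • e‖ ≤ ‖w‖`, so `ΔG / ε ≤ τ` by `hUB`. -/
theorem Q_base {K : Set X} (hconv : Convex ℝ K) {A : X →L[ℝ] X} {e : X} {G : X → ℝ}
    (hne : ∀ a ∈ K, ∀ b ∈ K, ‖A (a - b) + (G a - G b) • e‖ ≤ ‖a - b‖)
    {a₀ b₀ : X} (ha₀ : a₀ ∈ K) (hb₀ : b₀ ∈ K) {c₀ : ℝ} (hc₀ : 0 ≤ c₀) {τ : ℝ}
    (hUB : UB A e (c₀ • (a₀ - b₀)) τ) : Q K G (c₀ • (a₀ - b₀)) τ := by
  have hz : (1 / 2 : ℝ) • a₀ + (1 / 2 : ℝ) • b₀ ∈ K :=
    hconv ha₀ hb₀ (by norm_num) (by norm_num) (by norm_num)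
  refine ⟨(1 / 2 : ℝ) • a₀ + (1 / 2 : ℝ) • b₀, hz, 1 / (2 * c₀ + 2), by positivity, ?_⟩
  intro a ha η hη0 hη1 ε hε0 hε
  have hεc : ε * c₀ ≤ η / 2 := by
    have h1 : ε * (2 * c₀ + 2) ≤ η := by
      have h2 : (0 : ℝ) < 2 * c₀ + 2 := by positivity
      calc ε * (2 * c₀ + 2) ≤ (1 / (2 * c₀ + 2) * η) * (2 * c₀ + 2) :=
            mul_le_mul_of_nonneg_right hε h2.le
        _ = η := by field_simp
    nlinarith
  have hP : (1 - η) • a + η • ((1 / 2 : ℝ) • a₀ + (1 / 2 : ℝ) • b₀) ∈ K :=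
    hconv ha hz (by linarith) hη0 (by ring)
  have hP' : (1 - η) • a + η • ((1 / 2 : ℝ) • a₀ + (1 / 2 : ℝ) • b₀) + ε • (c₀ • (a₀ - b₀)) ∈ K := by
    have h3 := hconv.sum_mem (t := (Finset.univ : Finset (Fin 3)))
      (w := ![1 - η, η / 2 + ε * c₀, η / 2 - ε * c₀]) (z := ![a, a₀, b₀])
      (by
        intro i _
        fin_cases i
        · simpa using hη1
        · simp only [Fin.mk_one, Matrix.cons_val_one, Matrix.cons_val_zero]
          positivity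
        · simp only [Fin.reduceFinMk, Matrix.cons_val]
          linarith)
      (by
        rw [Fin.sum_univ_three]
        simp only [Matrix.cons_val_zero, Matrix.cons_val_one, Matrix.cons_val]
        ring)
      (by
        intro i _
        fin_cases i
        · simpa using ha
        · simpa using ha₀
        · simpa using hb₀)
    rw [Fin.sum_univ_three] at h3
    simp only [Matrix.cons_val_zero, Matrix.cons_val_one, Matrix.cons_val] at h3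
    have h4 : (1 - η) • a + η • ((1 / 2 : ℝ) • a₀ + (1 / 2 : ℝ) • b₀) + ε • (c₀ • (a₀ - b₀))
        = (1 - η) • a + (η / 2 + ε * c₀) • a₀ + (η / 2 - ε * c₀) • b₀ := by
      module
    rw [h4]
    exact h3
  refine ⟨hP', ?_⟩
  set Pt : X := (1 - η) • a + η • ((1 / 2 : ℝ) • a₀ + (1 / 2 : ℝ) • b₀) with hPt
  set w : X := c₀ • (a₀ - b₀) with hw
  rcases hε0.eq_or_lt with h0 | h0
  · rw [← h0]
    simp
  · have h5 := hne (Pt + ε • w) hP' Pt hP
    rw [add_sub_cancel_left, map_smul] at h5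
    set Δ : ℝ := G (Pt + ε • w) - G Pt with hΔ
    have h6 : ε • A w + Δ • e = ε • (A w + (Δ / ε) • e) := by
      rw [smul_add, smul_smul, mul_div_cancel₀ _ h0.ne']
    rw [h6, norm_smul, norm_smul, Real.norm_eq_abs, abs_of_pos h0] at h5
    have h7 : ‖A w + (Δ / ε) • e‖ ≤ ‖w‖ := le_of_mul_le_mul_left h5 h0
    have h8 : Δ / ε ≤ τ := hUB _ h7
    rw [div_le_iff₀ h0] at h8
    linarith

end Vale.Agent.P079R
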