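import Vale.Agent.P079R.Defs

open Filter Topology Set

namespace Vale.Agent.P079R

variable {X : Type*} [NormedAddCommGroup X] [NormedSpace ℝ X]

/-- L5. the telescoping inequality.
Proof.  Let `(z, c)` be the witness, `w = y - x`.  Fix `η ∈ (0,1]` and `N ≥ 1` with
`ε := (1-η)/N ≤ c η`.  Put `a_j = x + (j/N) w ∈ K` (`0 ≤ j ≤ N`), `P_j = (1-η) a_j + η z`.  Then
`P_{j+1} = P_j + ε w`, so `G P_{j+1} - G P_j ≤ ε τ`; by induction `G P_N - G P_0 ≤ (1-η) τ`.
`P_N - y = η (z - y)`, `P_0 - x = η (z - x)` and `P_0, P_N ∈ K`, so by `hLip`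
`G y - G x ≤ (1-η) τ + M η (‖z - y‖ + ‖z - x‖)` for all `η ∈ (0,1]`; let `η → 0`. -/
theorem Q_le {K : Set X} (hconv : Convex ℝ K) {G : X → ℝ} {M : ℝ}
    (hLip : ∀ a ∈ K, ∀ b ∈ K, |G a - G b| ≤ M * ‖a - b‖) {x y : X} (hx : x ∈ K) (hy : y ∈ K)
    {τ : ℝ} (h : Q K G (y - x) τ) : G y - G x ≤ τ := by
  obtain ⟨z, hz, c, hc, H⟩ := h
  have key : ∀ η : ℝ, 0 < η → η ≤ 1 →
      G y - G x ≤ (1 - η) * τ + M * η * (‖z - y‖ + ‖z - x‖) := by
    intro η hη0 hη1
    obtain ⟨N, hN⟩ := exists_nat_gt ((1 - η) / (c * η))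
    have hcη : 0 < c * η := mul_pos hc hη0
    have hq : 0 ≤ (1 - η) / (c * η) := div_nonneg (by linarith) hcη.le
    have hNpos : (0 : ℝ) < N := lt_of_le_of_lt hq hN
    have hε0 : 0 ≤ (1 - η) / N := div_nonneg (by linarith) hNpos.le
    have hε1 : (1 - η) / N ≤ c * η := by
      rw [div_le_iff₀ hNpos]
      rw [div_lt_iff₀ hcη] at hN
      linarith
    have haK : ∀ j : ℕ, j ≤ N → x + ((j : ℝ) / N) • (y - x) ∈ K := by
      intro j hj
      have hj' : (j : ℝ) ≤ N := by exact_mod_cast hj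
      have h0 : 0 ≤ (j : ℝ) / N := div_nonneg (Nat.cast_nonneg _) hNpos.le
      have h1 : (j : ℝ) / N ≤ 1 := by rw [div_le_one hNpos]; exact hj'
      have := hconv hx hy (a := 1 - (j : ℝ) / N) (b := (j : ℝ) / N) (by linarith) h0 (by ring)
      have e : x + ((j : ℝ) / N) • (y - x) = (1 - (j : ℝ) / N) • x + ((j : ℝ) / N) • y := by
        module
      rw [e]; exact this
    have ind : ∀ j : ℕ, j ≤ N →
        G ((1 - η) • (x + ((j : ℝ) / N) • (y - x)) + η • z) - G ((1 - η) • x + η • z)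
          ≤ j * ((1 - η) / N * τ) := by
      intro j
      induction j with
      | zero =>
        intro _
        simp
      | succ j ih =>
        intro hj
        have h1 := ih (by omega)
        have h2 := (H _ (haK j (by omega)) η hη0.le hη1 _ hε0 hε1).2
        have e : (1 - η) • (x + (((j + 1 : ℕ) : ℝ) / N) • (y - x)) + η • z
            = (1 - η) • (x + ((j : ℝ) / N) • (y - x)) + η • z + ((1 - η) / N) • (y - x) := by
          push_cast
          have hN0 : (N : ℝ) ≠ 0 := hNpos.ne'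
          have e1 : ((j : ℝ) + 1) / N = (j : ℝ) / N + 1 / N := by ring
          have e2 : (1 - η) / (N : ℝ) = (1 - η) * (1 / N) := by ring
          rw [e1, e2]
          module
        rw [e]
        push_cast
        linarith
    have hfin := ind N le_rfl
    have hNN : ((N : ℝ) / N) = 1 := div_self hNpos.ne'
    rw [hNN, one_smul] at hfin
    have exy : x + (y - x) = y := by abel
    rw [exy] at hfin
    have hval : (N : ℝ) * ((1 - η) / N * τ) = (1 - η) * τ := by
      field_simp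
    rw [hval] at hfin
    have hPy : (1 - η) • y + η • z ∈ K := hconv hy hz (by linarith) hη0.le (by ring)
    have hPx : (1 - η) • x + η • z ∈ K := hconv hx hz (by linarith) hη0.le (by ring)
    have l1 := hLip y hy _ hPy
    have l2 := hLip _ hPx x hx
    have n1 : ‖y - ((1 - η) • y + η • z)‖ = η * ‖z - y‖ := by
      have : y - ((1 - η) • y + η • z) = (-η) • (z - y) := by module
      rw [this, norm_smul, Real.norm_eq_abs, abs_neg, abs_of_pos hη0]
    have n2 : ‖(1 - η) • x + η • z - x‖ = η * ‖z - x‖ := by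
      have : (1 - η) • x + η • z - x = η • (z - x) := by module
      rw [this, norm_smul, Real.norm_eq_abs, abs_of_pos hη0]
    rw [n1] at l1
    rw [n2] at l2
    have l1' := (abs_le.1 l1).2
    have l2' := (abs_le.1 l2).2
    nlinarith
  have ht : Tendsto (fun η : ℝ => (1 - η) * τ + M * η * (‖z - y‖ + ‖z - x‖)) (𝓝[>] 0) (𝓝 τ) := by
    have h0 : Tendsto (fun η : ℝ => (1 - η) * τ + M * η * (‖z - y‖ + ‖z - x‖)) (𝓝 0)
        (𝓝 ((1 - 0) * τ + M * 0 * (‖z - y‖ + ‖z - x‖))) :=
      Continuous.tendsto (by fun_prop) 0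
    have h1 : (1 - 0) * τ + M * 0 * (‖z - y‖ + ‖z - x‖) = τ := by ring
    rw [h1] at h0
    exact h0.mono_left nhdsWithin_le_nhds
  refine ge_of_tendsto ht ?_
  filter_upwards [Ioc_mem_nhdsGT (zero_lt_one' ℝ)] with η hη
  exact key η hη.1 hη.2

end Vale.Agent.P079R
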