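import Vale.Agent.P079R.Defs

open Filter Topology Set

namespace Vale.Agent.P079R

variable {X : Type*} [NormedAddCommGroup X] [NormedSpace ℝ X]

/-- L1. Elements of the span of a convex set containing `0`. -/
theorem span_rep {K : Set X} (hconv : Convex ℝ K) (h0 : (0 : X) ∈ K) {v : X}
    (hv : v ∈ Submodule.span ℝ K) : ∃ c : ℝ, 0 ≤ c ∧ ∃ a ∈ K, ∃ b ∈ K, v = c • (a - b) := by
  induction hv using Submodule.span_induction with
  | mem x hx => exact ⟨1, zero_le_one, x, hx, 0, h0, by simp⟩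
  | zero => exact ⟨0, le_rfl, 0, h0, 0, h0, by simp⟩
  | add x y _ _ ihx ihy =>
    obtain ⟨c₁, hc₁, a₁, ha₁, b₁, hb₁, rfl⟩ := ihx
    obtain ⟨c₂, hc₂, a₂, ha₂, b₂, hb₂, rfl⟩ := ihy
    rcases (add_nonneg hc₁ hc₂).eq_or_lt with h | h
    · have h1 : c₁ = 0 := by linarith
      have h2 : c₂ = 0 := by linarith
      exact ⟨0, le_rfl, 0, h0, 0, h0, by simp [h1, h2]⟩
    · refine ⟨c₁ + c₂, h.le, (c₁ / (c₁ + c₂)) • a₁ + (c₂ / (c₁ + c₂)) • a₂,
        hconv ha₁ ha₂ (by positivity) (by positivity) (by field_simp),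
        (c₁ / (c₁ + c₂)) • b₁ + (c₂ / (c₁ + c₂)) • b₂,
        hconv hb₁ hb₂ (by positivity) (by positivity) (by field_simp), ?_⟩
      have e1 : (c₁ + c₂) * (c₁ / (c₁ + c₂)) = c₁ := by field_simp
      have e2 : (c₁ + c₂) * (c₂ / (c₁ + c₂)) = c₂ := by field_simp
      simp only [smul_sub, smul_add, smul_smul, e1, e2]
      abel
  | smul r x _ ih =>
    obtain ⟨c, hc, a, ha, b, hb, rfl⟩ := ih
    rcases le_total 0 r with hr | hr
    · exact ⟨r * c, mul_nonneg hr hc, a, ha, b, hb, by rw [smul_smul]⟩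
    · refine ⟨(-r) * c, mul_nonneg (by linarith) hc, b, hb, a, ha, ?_⟩
      rw [smul_smul, ← neg_sub a b, smul_neg, neg_mul, neg_smul, neg_neg]

/-- L3. scaling. -/
theorem Q_smul {K : Set X} {G : X → ℝ} {w : X} {τ : ℝ} (h : Q K G w τ) {r : ℝ} (hr : 0 < r) :
    Q K G (r • w) (r * τ) := by
  obtain ⟨z, hz, c, hc, H⟩ := h
  refine ⟨z, hz, c / r, by positivity, ?_⟩
  intro a ha η hη0 hη1 ε hε0 hε
  have h1 : ε * r ≤ c * η := by
    have : ε ≤ c * η / r := by rw [div_mul_eq_mul_div] at hε; exact hε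
    rwa [le_div_iff₀ hr] at this
  have := H a ha η hη0 hη1 (ε * r) (by positivity) h1
  rw [smul_smul]
  rw [← mul_assoc]
  exact this

/-- the zero pair -/
theorem Q_zero {K : Set X} (hconv : Convex ℝ K) {z : X} (hz : z ∈ K) {G : X → ℝ} :
    Q K G 0 0 := by
  refine ⟨z, hz, 1, one_pos, ?_⟩
  intro a ha η hη0 hη1 ε _ _
  have : (1 - η) • a + η • z ∈ K := hconv ha hz (by linarith) hη0 (by ring)
  simp [this]

end Vale.Agent.P079R
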