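import Vale.Agent.P079R.SpanRep
import Vale.Agent.P079R.QBase
import Vale.Agent.P079R.QAdd
import Vale.Agent.P079R.QLe

open Filter Topology Set

namespace Vale.Agent.P079R

variable {X : Type*} [NormedAddCommGroup X] [NormedSpace ℝ X]

theorem slope_bound {A : X →L[ℝ] X} {e : X} (he : e ≠ 0) {v : X} {s : ℝ}
    (h : ‖A v + s • e‖ ≤ ‖v‖) : |s| ≤ (1 + ‖A‖) / ‖e‖ * ‖v‖ := by
  have hepos : 0 < ‖e‖ := norm_pos_iff.2 he
  have h1 : |s| * ‖e‖ ≤ (1 + ‖A‖) * ‖v‖ := by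
    calc |s| * ‖e‖ = ‖s • e‖ := by rw [norm_smul, Real.norm_eq_abs]
      _ = ‖(A v + s • e) - A v‖ := by congr 1; abel
      _ ≤ ‖A v + s • e‖ + ‖A v‖ := norm_sub_le _ _
      _ ≤ ‖v‖ + ‖A‖ * ‖v‖ := add_le_add h (A.le_opNorm v)
      _ = (1 + ‖A‖) * ‖v‖ := by ring
  rw [div_mul_eq_mul_div, le_div_iff₀ hepos]
  exact h1

/-- the set of admissible slopes has a largest element -/
theorem exists_max_slope {K : Set X} (hconv : Convex ℝ K) (h0 : (0 : X) ∈ K) {A : X →L[ℝ] X}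
    {e : X} (he : e ≠ 0) {G : X → ℝ}
    (hne : ∀ a ∈ K, ∀ b ∈ K, ‖A (a - b) + (G a - G b) • e‖ ≤ ‖a - b‖)
    {v : X} (hv : v ∈ Submodule.span ℝ K) : ∃ β : ℝ, ‖A v + β • e‖ ≤ ‖v‖ ∧ UB A e v β := by
  set I : Set ℝ := {s | ‖A v + s • e‖ ≤ ‖v‖} with hI
  have hne' : I.Nonempty := by
    obtain ⟨c, hc, a, ha, b, hb, rfl⟩ := span_rep hconv h0 hv
    refine ⟨c * (G a - G b), ?_⟩
    show ‖A (c • (a - b)) + (c * (G a - G b)) • e‖ ≤ ‖c • (a - b)‖
    have : A (c • (a - b)) + (c * (G a - G b)) • e = c • (A (a - b) + (G a - G b) • e) := by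
      rw [map_smul, smul_add, smul_smul]
    rw [this, norm_smul, norm_smul]
    exact mul_le_mul_of_nonneg_left (hne a ha b hb) (norm_nonneg _)
  have hcl : IsClosed I := by
    apply isClosed_le _ continuous_const
    fun_prop
  have hbdd : BddAbove I := ⟨(1 + ‖A‖) / ‖e‖ * ‖v‖, fun s hs => (le_abs_self s).trans (slope_bound he hs)⟩
  exact ⟨sSup I, hcl.csSup_mem hne' hbdd, fun s hs => le_csSup hbdd hs⟩

/-- L6. Existence of tangent functionals. -/
theorem exists_tangent {K : Set X} (hconv : Convex ℝ K) (h0 : (0 : X) ∈ K) {A : X →L[ℝ] X}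
    {e : X} (he : e ≠ 0) {G : X → ℝ}
    (hne : ∀ a ∈ K, ∀ b ∈ K, ‖A (a - b) + (G a - G b) • e‖ ≤ ‖a - b‖)
    {x y : X} (hx : x ∈ K) (hy : y ∈ K) :
    ∃ D : StrongDual ℝ X, ‖D‖ ≤ (1 + ‖A‖) / ‖e‖ ∧
      (∀ v ∈ Submodule.span ℝ K, ‖A v + D v • e‖ ≤ ‖v‖) ∧ D (y - x) = G y - G x := by
  have hepos : 0 < ‖e‖ := norm_pos_iff.2 he
  set M : ℝ := (1 + ‖A‖) / ‖e‖ with hM
  have hM0 : 0 ≤ M := by positivity
  have hUBM : ∀ v : X, UB A e v (M * ‖v‖) := fun v s hs => (le_abs_self s).trans (slope_bound he hs)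
  have hLip : ∀ a ∈ K, ∀ b ∈ K, |G a - G b| ≤ M * ‖a - b‖ := fun a ha b hb =>
    slope_bound he (hne a ha b hb)
  have hQbase : ∀ w ∈ Submodule.span ℝ K, ∀ t, UB A e w t → Q K G w t := by
    intro w hw t ht
    obtain ⟨c, hc, a, ha, b, hb, rfl⟩ := span_rep hconv h0 hw
    exact Q_base hconv hne ha hb hc ht
  let E := ↥(Submodule.span ℝ K)
  let s : PointedCone ℝ (E × ℝ) :=
    { carrier := { p : E × ℝ | Q K G (p.1 : X) p.2 }
      zero_mem' := by
        show Q K G ((0 : E) : X) 0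
        exact Q_zero hconv h0
      smul_mem' := by
        rintro ⟨c, hc⟩ p hp
        rcases eq_or_lt_of_le' hc with h | h
        · subst h
          show Q K G (((0 : ℝ) • p.1 : E) : X) ((0 : ℝ) • p.2)
          simpa using Q_zero hconv h0
        · show Q K G ((c • p.1 : E) : X) (c • p.2)
          exact Q_smul hp h
      add_mem' := by
        intro p q hp hq
        show Q K G ((p.1 + q.1 : E) : X) (p.2 + q.2)
        exact Q_add hconv hp hq }
  have hs : ∀ p : E × ℝ, p ∈ s ↔ Q K G (p.1 : X) p.2 := fun p => Iff.rfl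
  have hyx : y - x ∈ Submodule.span ℝ K :=
    Submodule.sub_mem _ (Submodule.subset_span hy) (Submodule.subset_span hx)
  let u : E := ⟨y - x, hyx⟩
  set γ : ℝ := G y - G x with hγ
  obtain ⟨ℓ, hℓ⟩ : ∃ ℓ : E →ₗ[ℝ] ℝ, ℓ u = γ := by
    by_cases hu : u = 0
    · refine ⟨0, ?_⟩
      have h1 : y - x = 0 := congrArg Subtype.val hu
      have h2 : y = x := sub_eq_zero.1 h1
      simp [hγ, h2]
    · have hun : ‖u‖ ≠ 0 := norm_ne_zero_iff.2 hu
      obtain ⟨g, -, hg⟩ := exists_dual_vector ℝ u hun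
      refine ⟨(γ / ‖u‖) • (g : E →ₗ[ℝ] ℝ), ?_⟩
      have hg' : g u = ‖u‖ := by simpa using hg
      simp only [LinearMap.smul_apply, ContinuousLinearMap.coe_coe, hg', smul_eq_mul]
      field_simp
  let Λ₀ : E × ℝ →ₗ[ℝ] ℝ := LinearMap.snd ℝ E ℝ - ℓ.comp (LinearMap.fst ℝ E ℝ)
  have hΛ₀ : ∀ (w : E) (t : ℝ), Λ₀ (w, t) = t - ℓ w := fun w t => rfl
  let W : Submodule ℝ (E × ℝ) := Submodule.prod (Submodule.span ℝ {u}) ⊤
  let f : E × ℝ →ₗ.[ℝ] ℝ := Λ₀.toPMap W
  have hf : ∀ p : f.domain, f p = Λ₀ (p : E × ℝ) := fun p => rfl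
  have hnonneg : ∀ p : f.domain, (p : E × ℝ) ∈ s → 0 ≤ f p := by
    rintro ⟨⟨w, b⟩, hw⟩ hp
    obtain ⟨a, rfl⟩ := Submodule.mem_span_singleton.1 hw.1
    rw [hf]
    show 0 ≤ Λ₀ (a • u, b)
    rw [hΛ₀, map_smul, hℓ, smul_eq_mul]
    have hp' : Q K G (a • (y - x)) b := hp
    rcases lt_trichotomy a 0 with ha | ha | ha
    · have h1 : Q K G ((-a)⁻¹ • (a • (y - x))) ((-a)⁻¹ * b) :=
        Q_smul hp' (inv_pos.2 (by linarith))
      have h2 : (-a)⁻¹ • (a • (y - x)) = x - y := by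
        rw [smul_smul]
        have : (-a)⁻¹ * a = -1 := by
          rw [inv_neg, neg_mul, inv_mul_cancel₀ ha.ne]
        rw [this]; simp
      rw [h2] at h1
      have h3 := Q_le hconv hLip hy hx h1
      have h4 : (G x - G y) * (-a) ≤ b := by
        have hna : 0 < -a := by linarith
        have : G x - G y ≤ b / (-a) := by
          rw [div_eq_inv_mul]; exact h3
        rwa [le_div_iff₀ hna] at this
      have : a * γ = (G x - G y) * (-a) := by rw [hγ]; ring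
      linarith
    · subst ha
      have h1 : Q K G (x - x) b := by simpa using hp'
      have := Q_le hconv hLip hx hx h1
      simp at this
      simpa using this
    · have h1 : Q K G (a⁻¹ • (a • (y - x))) (a⁻¹ * b) := Q_smul hp' (inv_pos.2 ha)
      rw [smul_smul, inv_mul_cancel₀ ha.ne', one_smul] at h1
      have h3 := Q_le hconv hLip hx hy h1
      have : G y - G x ≤ b / a := by rw [div_eq_inv_mul]; exact h3
      rw [le_div_iff₀ ha] at this
      have h5 : a * γ = (G y - G x) * a := by rw [hγ]; ring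
      linarith
  have hdense : ∀ q : E × ℝ, ∃ p : f.domain, (p : E × ℝ) + q ∈ s := by
    rintro ⟨w, t⟩
    refine ⟨⟨(0, M * ‖(w : X)‖ - t), ⟨Submodule.zero_mem _, trivial⟩⟩, ?_⟩
    show Q K G ((0 + w : E) : X) (M * ‖(w : X)‖ - t + t)
    have : Q K G (w : X) (M * ‖(w : X)‖) := hQbase _ w.2 _ (hUBM _)
    simpa using this
  obtain ⟨g, hg_eq, hg_nonneg⟩ := riesz_extension s f hnonneg hdense
  have hg1 : ∀ t : ℝ, g (0, t) = t := by
    intro t
    have := hg_eq ⟨(0, t), ⟨Submodule.zero_mem _, trivial⟩⟩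
    rw [hf] at this
    simpa [hΛ₀] using this
  have hg2 : g (u, 0) = -γ := by
    have := hg_eq ⟨(u, 0), ⟨Submodule.mem_span_singleton_self u, trivial⟩⟩
    rw [hf] at this
    simpa [hΛ₀, hℓ] using this
  let D₀ : E →ₗ[ℝ] ℝ := -g.comp (LinearMap.inl ℝ E ℝ)
  have hD₀ : ∀ w : E, D₀ w = -g (w, 0) := fun w => rfl
  have hgD : ∀ (w : E) (t : ℝ), g (w, t) = t - D₀ w := by
    intro w t
    have : ((w, t) : E × ℝ) = (w, 0) + (0, t) := by simp
    rw [this, map_add, hg1, hD₀]; ring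
  have hD₀le : ∀ (w : E) (t : ℝ), UB A e (w : X) t → D₀ w ≤ t := by
    intro w t ht
    have := hg_nonneg (w, t) (hQbase _ w.2 _ ht)
    rw [hgD] at this
    linarith
  have hD₀bd : ∀ w : E, ‖D₀ w‖ ≤ M * ‖w‖ := by
    intro w
    rw [Real.norm_eq_abs, abs_le]
    constructor
    · have := hD₀le (-w) (M * ‖((-w : E) : X)‖) (hUBM _)
      rw [map_neg] at this
      have h2 : ‖((-w : E) : X)‖ = ‖w‖ := by
        rw [Submodule.coe_neg, norm_neg]; rfl
      rw [h2] at this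
      linarith
    · exact hD₀le w _ (hUBM _)
  let D₁ : E →L[ℝ] ℝ := D₀.mkContinuous M hD₀bd
  obtain ⟨D, hDext, hDnorm⟩ := exists_extension_norm_eq (Submodule.span ℝ K) D₁
  have hDE : ∀ w : E, D (w : X) = D₀ w := fun w => hDext w
  refine ⟨D, ?_, ?_, ?_⟩
  · rw [hDnorm]
    exact LinearMap.mkContinuous_norm_le _ hM0 _
  · intro v hv
    obtain ⟨β, hβ1, hβ2⟩ := exists_max_slope hconv h0 he hne hv
    obtain ⟨β', hβ'1, hβ'2⟩ := exists_max_slope hconv h0 he hne (Submodule.neg_mem _ hv)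
    have h1 : D v ≤ β := by
      have := hD₀le ⟨v, hv⟩ β hβ2
      rwa [← hDE] at this
    have h2 : -β' ≤ D v := by
      have := hD₀le ⟨-v, Submodule.neg_mem _ hv⟩ β' hβ'2
      rw [← hDE] at this
      simp only [map_neg] at this
      linarith
    have h3 : ‖A v + (-β') • e‖ ≤ ‖v‖ := by
      have : A v + (-β') • e = -(A (-v) + β' • e) := by
        rw [map_neg, neg_smul]; abel
      rw [this, norm_neg]
      simpa using hβ'1
    have hconvI : Convex ℝ {s : ℝ | ‖A v + s • e‖ ≤ ‖v‖} := by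
      intro s₁ h₁ s₂ h₂ a b ha hb hab
      show ‖A v + (a • s₁ + b • s₂) • e‖ ≤ ‖v‖
      have : A v + (a • s₁ + b • s₂) • e = a • (A v + s₁ • e) + b • (A v + s₂ • e) := by
        simp only [smul_add, smul_smul, add_smul, smul_eq_mul]
        have : A v = a • A v + b • A v := by rw [← add_smul, hab, one_smul]
        nth_rewrite 1 [this]
        abel
      rw [this]
      calc ‖a • (A v + s₁ • e) + b • (A v + s₂ • e)‖
          ≤ ‖a • (A v + s₁ • e)‖ + ‖b • (A v + s₂ • e)‖ := norm_add_le _ _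
        _ = a * ‖A v + s₁ • e‖ + b * ‖A v + s₂ • e‖ := by
            rw [norm_smul, norm_smul, Real.norm_of_nonneg ha, Real.norm_of_nonneg hb]
        _ ≤ a * ‖v‖ + b * ‖v‖ := by
            have h₁' : ‖A v + s₁ • e‖ ≤ ‖v‖ := h₁
            have h₂' : ‖A v + s₂ • e‖ ≤ ‖v‖ := h₂
            gcongr
        _ = ‖v‖ := by rw [← add_mul, hab, one_mul]
    exact hconvI.ordConnected.out h3 hβ1 ⟨h2, h1⟩
  · have := hDE u
    rw [hD₀, hg2, neg_neg] at this
    exact this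

end Vale.Agent.P079R
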